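import Vale.Agent.P097.H531.CD.Defs

/-!
# P097 / case [d], Row P, second part: no tangency, consecutive vertices are different
-/

set_option linter.all false

open Complex Metric Filter Topology Set
open scoped ComplexConjugate

namespace Vale.Agent.P097.H830.CD

open Vale.Agent.P097 Vale.Agent.P097.TA Vale.Agent.P097.H202 Vale.Agent.P097.SC
open Vale.Agent.P097.H456.Fct Vale.Agent.P097.CD

/-- incidence of the point `x` of the curve and the line `(a, b)` -/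
noncomputable def Inc (F q : ℂ → ℂ) (v : ℂ × ℂ × ℂ) : ℂ :=
  deriv F v.1 * (q v.1 * cos (v.2.1 - F v.1) - v.2.2) + deriv q v.1 * sin (v.2.1 - F v.1)

/-- its derivative in `x` -/
noncomputable def Incx (F q : ℂ → ℂ) (v : ℂ × ℂ × ℂ) : ℂ :=
  deriv (deriv F) v.1 * (q v.1 * cos (v.2.1 - F v.1) - v.2.2) +
    (deriv (deriv q) v.1 + q v.1 * deriv F v.1 ^ 2) * sin (v.2.1 - F v.1)

noncomputable def Inca (F q : ℂ → ℂ) (v : ℂ × ℂ × ℂ) : ℂ :=
  -(deriv F v.1 * (q v.1 * sin (v.2.1 - F v.1))) + deriv q v.1 * cos (v.2.1 - F v.1)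

section
variable {F q : ℂ → ℂ} (dF : Differentiable ℂ F) (dq : Differentiable ℂ q)
include dF dq

theorem dd {f : ℂ → ℂ} (hf : Differentiable ℂ f) : Differentiable ℂ (deriv f) := fun z =>
  ((hf.analyticAt z).deriv).differentiableAt

/-- derivative of the incidence along a curve -/
theorem hasDerivAt_Inc {x a b : ℂ → ℂ} {x' a' b' s : ℂ} (hx : HasDerivAt x x' s)
    (ha : HasDerivAt a a' s) (hb : HasDerivAt b b' s) :
    HasDerivAt (fun s => Inc F q (x s, a s, b s))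
      (Incx F q (x s, a s, b s) * x' + Inca F q (x s, a s, b s) * a' - deriv F (x s) * b') s := by
  have h1 : HasDerivAt (fun s => deriv F (x s)) (deriv (deriv F) (x s) * x') s :=
    ((dd dF dq dF (x s)).hasDerivAt).comp s hx
  have h2 : HasDerivAt (fun s => deriv q (x s)) (deriv (deriv q) (x s) * x') s :=
    ((dd dF dq dq (x s)).hasDerivAt).comp s hx
  have h3 : HasDerivAt (fun s => q (x s)) (deriv q (x s) * x') s := ((dq (x s)).hasDerivAt).comp s hx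
  have h4 : HasDerivAt (fun s => F (x s)) (deriv F (x s) * x') s := ((dF (x s)).hasDerivAt).comp s hx
  have h5 := (ha.sub h4).ccos
  have h6 := (ha.sub h4).csin
  have h7 := (h1.mul ((h3.mul h5).sub hb)).add (h2.mul h6)
  refine h7.congr_deriv ?_
  simp only [Incx, Inca, Pi.sub_apply, Pi.mul_apply]
  ring

theorem analyticAt_Inc (v : ℂ × ℂ × ℂ) : AnalyticAt ℂ (Inc F q) v := by
  have a1 : AnalyticAt ℂ (fun v : ℂ × ℂ × ℂ => v.1) v := analyticAt_fst
  have a2 : AnalyticAt ℂ (fun v : ℂ × ℂ × ℂ => v.2.1) v := analyticAt_fst.comp analyticAt_snd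
  have a3 : AnalyticAt ℂ (fun v : ℂ × ℂ × ℂ => v.2.2) v := analyticAt_snd.comp analyticAt_snd
  have h1 : AnalyticAt ℂ (fun v : ℂ × ℂ × ℂ => deriv F v.1) v := (dF.analyticAt _).deriv.comp a1
  have h2 : AnalyticAt ℂ (fun v : ℂ × ℂ × ℂ => deriv q v.1) v := (dq.analyticAt _).deriv.comp a1
  have h3 : AnalyticAt ℂ (fun v : ℂ × ℂ × ℂ => q v.1) v := (dq.analyticAt _).comp a1
  have h4 : AnalyticAt ℂ (fun v : ℂ × ℂ × ℂ => F v.1) v := (dF.analyticAt _).comp a1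
  have h5 : AnalyticAt ℂ (fun v : ℂ × ℂ × ℂ => cos (v.2.1 - F v.1)) v :=
    (Complex.differentiable_cos.analyticAt _).comp (a2.sub h4)
  have h6 : AnalyticAt ℂ (fun v : ℂ × ℂ × ℂ => sin (v.2.1 - F v.1)) v :=
    (Complex.differentiable_sin.analyticAt _).comp (a2.sub h4)
  exact (h1.mul ((h3.mul h5).sub a3)).add (h2.mul h6)

/-- **key lemma**: if incidence holds near a point where the lines form a regular congruence, the
incidence is transversal in the position -/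
theorem Incx_ne {A P Θ : ℂ × ℂ → ℂ} {u : ℂ × ℂ} (aA : AnalyticAt ℂ A u) (aP : AnalyticAt ℂ P u)
    (aΘ : AnalyticAt ℂ Θ u) (hI : ∀ᶠ v in 𝓝 u, Inc F q (Θ v, A v, P v) = 0)
    (hW : Wr F q (Θ u) ≠ 0)
    (hb : br (fun t w => A (t, w)) (fun t w => P (t, w)) u.1 u.2 ≠ 0) :
    Incx F q (Θ u, A u, P u) ≠ 0 := by
  intro h0
  obtain ⟨t, w⟩ := u
  have e0 : Inc F q (Θ (t, w), A (t, w), P (t, w)) = 0 := hI.self_of_nhds
  -- slices
  have c1 : HasDerivAt (fun s : ℂ => ((s, w) : ℂ × ℂ)) (1, 0) t :=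
    (hasDerivAt_id t).prodMk (hasDerivAt_const t w)
  have c2 : HasDerivAt (fun s : ℂ => ((t, s) : ℂ × ℂ)) (0, 1) w :=
    (hasDerivAt_const w t).prodMk (hasDerivAt_id w)
  have sl1 : ∀ {f : ℂ × ℂ → ℂ}, AnalyticAt ℂ f (t, w) →
      HasDerivAt (fun s => f (s, w)) (deriv (fun s => f (s, w)) t) t := by
    intro f hf
    have : DifferentiableAt ℂ (fun s => f (s, w)) t :=
      (hf.differentiableAt.hasFDerivAt.comp_hasDerivAt t c1).differentiableAt
    exact this.hasDerivAt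
  have sl2 : ∀ {f : ℂ × ℂ → ℂ}, AnalyticAt ℂ f (t, w) →
      HasDerivAt (fun s => f (t, s)) (deriv (fun s => f (t, s)) w) w := by
    intro f hf
    have : DifferentiableAt ℂ (fun s => f (t, s)) w :=
      (hf.differentiableAt.hasFDerivAt.comp_hasDerivAt w c2).differentiableAt
    exact this.hasDerivAt
  have z1 : (fun s => Inc F q (Θ (s, w), A (s, w), P (s, w))) =ᶠ[𝓝 t] fun _ => 0 :=
    (c1.continuousAt.eventually hI)
  have z2 : (fun s => Inc F q (Θ (t, s), A (t, s), P (t, s))) =ᶠ[𝓝 w] fun _ => 0 :=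
    (c2.continuousAt.eventually hI)
  have d1 := (hasDerivAt_Inc dF dq (sl1 aΘ) (sl1 aA) (sl1 aP)).deriv
  have d2 := (hasDerivAt_Inc dF dq (sl2 aΘ) (sl2 aA) (sl2 aP)).deriv
  rw [z1.deriv_eq, deriv_const, h0] at d1
  rw [z2.deriv_eq, deriv_const, h0] at d2
  set g := deriv F (Θ (t, w)) with hg
  set c := Inca F q (Θ (t, w), A (t, w), P (t, w)) with hc
  have hbr : br (fun t w => A (t, w)) (fun t w => P (t, w)) t w =
      deriv (fun s => A (s, w)) t * deriv (fun s => P (t, s)) w -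
      deriv (fun s => A (t, s)) w * deriv (fun s => P (s, w)) t := rfl
  simp only at hb
  rw [hbr] at hb
  by_cases hg0 : g = 0
  · -- then the sine vanishes and the cosine does not
    have hq : deriv q (Θ (t, w)) ≠ 0 := by
      intro h
      apply hW
      simp only [Wr, ← hg, hg0, h]
      ring
    have hs : sin (A (t, w) - F (Θ (t, w))) = 0 := by
      have : deriv q (Θ (t, w)) * sin (A (t, w) - F (Θ (t, w))) = 0 := by
        have e := e0
        simp only [Inc, ← hg, hg0, zero_mul, zero_add] at e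
        exact e
      exact (mul_eq_zero.1 this).resolve_left hq
    have hcos : cos (A (t, w) - F (Θ (t, w))) ≠ 0 := by
      intro h
      have := Complex.sin_sq_add_cos_sq (A (t, w) - F (Θ (t, w)))
      rw [hs, h] at this
      norm_num at this
    have hc0 : c ≠ 0 := by
      simp only [hc, Inca, ← hg, hg0, zero_mul, neg_zero, zero_add]
      exact mul_ne_zero hq hcos
    rw [hg0] at d1 d2
    have e1 : deriv (fun s => A (s, w)) t = 0 := by
      have : c * deriv (fun s => A (s, w)) t = 0 := by linear_combination -d1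
      exact (mul_eq_zero.1 this).resolve_left hc0
    have e2 : deriv (fun s => A (t, s)) w = 0 := by
      have : c * deriv (fun s => A (t, s)) w = 0 := by linear_combination -d2
      exact (mul_eq_zero.1 this).resolve_left hc0
    apply hb
    rw [e1, e2]
    ring
  · apply hb
    have : g * (deriv (fun s => A (s, w)) t * deriv (fun s => P (t, s)) w -
      deriv (fun s => A (t, s)) w * deriv (fun s => P (s, w)) t) = 0 := by
      linear_combination deriv (fun s => A (s, w)) t * d2 - deriv (fun s => A (t, s)) w * d1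
    exact (mul_eq_zero.1 this).resolve_left hg0

/-- local uniqueness of the position on a line -/
theorem Inc_unique {v : ℂ × ℂ × ℂ} (h : Incx F q v ≠ 0) :
    ∀ᶠ z in 𝓝 (v, v), Inc F q z.1 = 0 → Inc F q z.2 = 0 → z.1.2 = z.2.2 → z.1.1 = z.2.1 := by
  have hs := (analyticAt_Inc dF dq v).hasStrictFDerivAt
  set D := fderiv ℂ (Inc F q) v with hD
  have hD1 : D (1, 0, 0) = Incx F q v := by
    have c1 : HasDerivAt (fun s : ℂ => ((s, v.2) : ℂ × ℂ × ℂ)) (1, 0) v.1 :=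
      (hasDerivAt_id v.1).prodMk (hasDerivAt_const v.1 v.2)
    have e0 : HasFDerivAt (Inc F q) D ((fun s : ℂ => ((s, v.2) : ℂ × ℂ × ℂ)) v.1) :=
      hs.hasFDerivAt
    have e1 := e0.comp_hasDerivAt v.1 c1
    have e2 := hasDerivAt_Inc dF dq (hasDerivAt_id v.1) (hasDerivAt_const v.1 v.2.1)
      (hasDerivAt_const v.1 v.2.2)
    have e3 : D (1, 0) = _ := HasDerivAt.unique e1 e2
    have : ((1, 0, 0) : ℂ × ℂ × ℂ) = (1, 0) := rfl
    rw [this, e3]
    simp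
  have hk : 0 < ‖Incx F q v‖ / 2 := by positivity
  have h1 := hs.isLittleO.def hk
  filter_upwards [h1] with z hz e1 e2 e3
  by_contra hne
  have hd : z.1 - z.2 = (z.1.1 - z.2.1) • ((1, 0, 0) : ℂ × ℂ × ℂ) := by
    refine Prod.ext ?_ ?_
    · simp
    · have : (z.1 - z.2).2 = z.1.2 - z.2.2 := rfl
      rw [this, e3, sub_self]
      ext <;> simp
  have hn : ‖z.1 - z.2‖ = ‖z.1.1 - z.2.1‖ := by
    rw [hd, norm_smul]
    have : ‖((1, 0, 0) : ℂ × ℂ × ℂ)‖ = 1 := by simp [Prod.norm_def]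
    rw [this, mul_one]
  rw [e1, e2, hn, hd, map_smul, hD1, sub_self, zero_sub, norm_neg, norm_smul] at hz
  have hp : 0 < ‖z.1.1 - z.2.1‖ := by
    rw [norm_pos_iff, sub_ne_zero]
    exact hne
  have hi : 0 < ‖Incx F q v‖ := by positivity
  nlinarith [mul_pos hp hi]

end

/-! ### elementary tools -/

theorem loc_inj {f : ℂ → ℂ} {x : ℂ} (hf : AnalyticAt ℂ f x) (h : deriv f x ≠ 0) :
    ∀ᶠ z in 𝓝 (x, x), f z.1 = f z.2 → z.1 = z.2 := by
  have hs := hf.hasStrictDerivAt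
  have hk : 0 < ‖deriv f x‖ / 2 := by positivity
  have h1 := hs.hasStrictFDerivAt.isLittleO.def hk
  filter_upwards [h1] with z hz e
  by_contra hne
  have hp : 0 < ‖z.1 - z.2‖ := by
    rw [norm_pos_iff, sub_ne_zero]
    exact hne
  have hi : 0 < ‖deriv f x‖ := by positivity
  rw [e, sub_self, zero_sub, norm_neg] at hz
  have hz' : ‖(z.1 - z.2) * deriv f x‖ ≤ ‖deriv f x‖ / 2 * ‖z.1 - z.2‖ := by
    refine le_trans (le_of_eq ?_) hz
    simp [mul_comm]
  rw [norm_mul] at hz'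
  nlinarith [mul_pos hp hi]

theorem real_id {f g : ℂ → ℂ} {s : ℝ} (hf : AnalyticAt ℂ f s) (hg : AnalyticAt ℂ g s)
    (h : ∀ x : ℝ, f x = g x) : f =ᶠ[𝓝 (s : ℂ)] g := by
  refine (hf.frequently_eq_iff_eventually_eq hg).1 ?_
  have h1 : Tendsto (fun x : ℝ => (x : ℂ)) (𝓝[≠] s) (𝓝[≠] (s : ℂ)) := by
    refine tendsto_nhdsWithin_of_tendsto_nhds_of_eventually_within _ ?_ ?_
    · exact (Complex.continuous_ofReal.tendsto s).mono_left nhdsWithin_le_nhds
    · filter_upwards [self_mem_nhdsWithin] with x hx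
      intro hh
      have h2 : (x : ℂ) = s := hh
      exact hx (Complex.ofReal_injective h2)
  exact h1.frequently (Eventually.frequently (Eventually.of_forall fun x => h x))

theorem Tb_eq (y ρ : ℝ) : Tb y ρ = (Complex.im ⁻¹' Ioo (-y) y) ×ˢ ball (0 : ℂ) ρ := by
  ext u
  simp [Tb, abs_lt]

theorem isOpen_Tb (y ρ : ℝ) : IsOpen (Tb y ρ) := by
  rw [Tb_eq]
  exact (isOpen_Ioo.preimage Complex.continuous_im).prod isOpen_ball

theorem convex_Tb (y ρ : ℝ) : Convex ℝ (Tb y ρ) := by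
  rw [Tb_eq]
  exact ((convex_Ioo (-y) y).linear_preimage Complex.imLm).prod (convex_ball _ _)

theorem pre_Tb (y ρ : ℝ) : IsPreconnected (Tb y ρ) := (convex_Tb y ρ).isPreconnected

theorem zero_mem_Tb {y ρ : ℝ} (hy : 0 < y) (hρ : 0 < ρ) (s : ℝ) : ((s : ℂ), (0 : ℂ)) ∈ Tb y ρ := by
  simp [Tb, hy, hρ]

/-- a shift of the tube -/
theorem sh_mem {y ρ : ℝ} {s : ℂ} (hs : ‖s‖ ≤ 1) {u : ℂ × ℂ} (hu : u ∈ Tb (y - ρ) ρ) :
    (u.1 + s * u.2, u.2) ∈ Tb y ρ := by
  obtain ⟨h1, h2⟩ := hu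
  refine ⟨?_, h2⟩
  have h3 : |(s * u.2).im| ≤ ‖u.2‖ := by
    calc |(s * u.2).im| ≤ ‖s * u.2‖ := Complex.abs_im_le_norm _
      _ = ‖s‖ * ‖u.2‖ := norm_mul _ _
      _ ≤ 1 * ‖u.2‖ := by gcongr
      _ = ‖u.2‖ := one_mul _
  have h4 : (u.1 + s * u.2).im = u.1.im + (s * u.2).im := Complex.add_im _ _
  simp only [h4]
  calc |u.1.im + (s * u.2).im| ≤ |u.1.im| + |(s * u.2).im| := abs_add_le _ _
    _ < y := by linarith

theorem an_sh {s : ℂ} (u : ℂ × ℂ) : AnalyticAt ℂ (fun u : ℂ × ℂ => (u.1 + s * u.2, u.2)) u :=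
  (analyticAt_fst.add (analyticAt_const.mul analyticAt_snd)).prod analyticAt_snd

theorem an_comp_sh {f : ℂ × ℂ → ℂ} {s : ℂ} {u : ℂ × ℂ} (hf : AnalyticAt ℂ f (u.1 + s * u.2, u.2)) :
    AnalyticAt ℂ (fun u : ℂ × ℂ => f (u.1 + s * u.2, u.2)) u :=
  AnalyticAt.comp (g := f) (f := fun u : ℂ × ℂ => (u.1 + s * u.2, u.2)) hf (an_sh u)

theorem an_comp_sh' {f : ℂ × ℂ → ℂ} {y ρ : ℝ} (hf : AnalyticOnNhd ℂ f (Tb y ρ)) {s : ℂ}
    (hs : ‖s‖ ≤ 1) : AnalyticOnNhd ℂ (fun u : ℂ × ℂ => f (u.1 + s * u.2, u.2)) (Tb (y - ρ) ρ) :=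
  fun u hu => an_comp_sh (hf _ (sh_mem hs hu))

/-! ### the bracket -/

theorem br_eq_fderiv {A P : ℂ × ℂ → ℂ} {u : ℂ × ℂ} (aA : AnalyticAt ℂ A u) (aP : AnalyticAt ℂ P u) :
    br (fun t w => A (t, w)) (fun t w => P (t, w)) u.1 u.2 =
      fderiv ℂ A u (1, 0) * fderiv ℂ P u (0, 1) - fderiv ℂ A u (0, 1) * fderiv ℂ P u (1, 0) := by
  obtain ⟨t, w⟩ := u
  have c1 : HasDerivAt (fun s : ℂ => ((s, w) : ℂ × ℂ)) (1, 0) t :=
    (hasDerivAt_id t).prodMk (hasDerivAt_const t w)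
  have c2 : HasDerivAt (fun s : ℂ => ((t, s) : ℂ × ℂ)) (0, 1) w :=
    (hasDerivAt_const w t).prodMk (hasDerivAt_id w)
  have e1 : ∀ {f : ℂ × ℂ → ℂ}, AnalyticAt ℂ f (t, w) →
      deriv (fun s => f (s, w)) t = fderiv ℂ f (t, w) (1, 0) := fun hf =>
    (hf.differentiableAt.hasFDerivAt.comp_hasDerivAt t c1).deriv
  have e2 : ∀ {f : ℂ × ℂ → ℂ}, AnalyticAt ℂ f (t, w) →
      deriv (fun s => f (t, s)) w = fderiv ℂ f (t, w) (0, 1) := fun hf =>
    (hf.differentiableAt.hasFDerivAt.comp_hasDerivAt w c2).deriv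
  simp only [br, dx, de, e1 aA, e2 aA, e1 aP, e2 aP]

theorem bracket {κ Λ : ℝ} {H Φ : ℂ → ℂ} {r e : ℝ} {α p : ℂ → ℂ → ℂ} {J : ℂ → ℂ}
    (L : Lines κ Λ H Φ r e α p J) {y ρ : ℝ} {A P : ℂ × ℂ → ℂ} (T : Tu α p y ρ A P) (hρ : ρ ≤ e)
    {u : ℂ × ℂ} (hu : u ∈ Tb y ρ) :
    br (fun t w => A (t, w)) (fun t w => P (t, w)) u.1 u.2 = J u.2 := by
  have hr := L.hr
  have he := L.he
  -- near `(0, 0)`
  have h0 := T.eq 0
  rw [Complex.ofReal_zero] at h0
  obtain ⟨S, hS1, hS2, hS3⟩ := _root_.mem_nhds_iff.1 h0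
  have hWW : IsOpen (WW 0 r e) := by
    have : WW 0 r e = {p : ℂ × ℂ | ‖p.2‖ < e} ∩ {p : ℂ × ℂ | |p.1.im| + 0 * |p.2.im| < r} := rfl
    rw [this]
    refine IsOpen.inter (isOpen_lt (by fun_prop) continuous_const)
      (isOpen_lt ?_ continuous_const)
    have h1 : Continuous fun p : ℂ × ℂ => p.1.im := Complex.continuous_im.comp continuous_fst
    have h2 : Continuous fun p : ℂ × ℂ => p.2.im := Complex.continuous_im.comp continuous_snd
    exact h1.abs.add (continuous_const.mul h2.abs)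
  have hz : ((0 : ℂ), (0 : ℂ)) ∈ WW 0 r e := by simp [WW, hr, he]
  set S' := S ∩ (WW 0 r e ∩ Tb y ρ) with hS'
  have oS' : IsOpen S' := hS2.inter (hWW.inter (isOpen_Tb y ρ))
  have zS' : ((0 : ℂ), (0 : ℂ)) ∈ S' :=
    ⟨hS3, hz, by simpa using zero_mem_Tb T.y0 T.ρ0 0⟩
  have near : ∀ u ∈ S', fderiv ℂ A u (1, 0) * fderiv ℂ P u (0, 1) -
      fderiv ℂ A u (0, 1) * fderiv ℂ P u (1, 0) = J u.2 := by
    intro u hu
    rw [← br_eq_fderiv (T.aA u hu.2.2) (T.aP u hu.2.2), ← L.brk u.1 u.2 hu.2.1]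
    have c1 : ∀ x w, (x, w) ∈ S' → A (x, w) = α x w := fun x w h => (hS1 h.1).1
    have c2 : ∀ x w, (x, w) ∈ S' → P (x, w) = p x w := fun x w h => (hS1 h.1).2
    simp only [br]
    have hu' : (u.1, u.2) ∈ S' := hu
    rw [dx_congr (f := fun x w => A (x, w)) (g := α) oS' c1 hu',
      dx_congr (f := fun x w => P (x, w)) (g := p) oS' c2 hu',
      de_congr (f := fun x w => A (x, w)) (g := α) oS' c1 hu',
      de_congr (f := fun x w => P (x, w)) (g := p) oS' c2 hu']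
  have a1 : AnalyticOnNhd ℂ (fun u => fderiv ℂ A u (1, 0) * fderiv ℂ P u (0, 1) -
      fderiv ℂ A u (0, 1) * fderiv ℂ P u (1, 0)) (Tb y ρ) := by
    intro u hu
    have k : ∀ {f : ℂ × ℂ → ℂ} (v : ℂ × ℂ), AnalyticAt ℂ f u →
        AnalyticAt ℂ (fun u => fderiv ℂ f u v) u := fun v hf =>
      ((ContinuousLinearMap.apply ℂ ℂ v).analyticAt _).comp hf.fderiv
    exact ((k _ (T.aA u hu)).mul (k _ (T.aP u hu))).sub ((k _ (T.aA u hu)).mul (k _ (T.aP u hu)))
  have a2 : AnalyticOnNhd ℂ (fun u : ℂ × ℂ => J u.2) (Tb y ρ) := by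
    intro u hu
    have : AnalyticAt ℂ J u.2 := L.jJ.analyticAt (isOpen_ball.mem_nhds (by
      rw [mem_ball_zero_iff]
      exact lt_of_lt_of_le hu.2 hρ))
    exact this.comp analyticAt_snd
  have key := a1.eqOn_of_preconnected_of_eventuallyEq a2 (pre_Tb y ρ) zS'.2.2
    (by filter_upwards [oS'.mem_nhds zS'] with u hu using near u hu)
  rw [br_eq_fderiv (T.aA u hu) (T.aP u hu)]
  exact key hu

/-! ### periodicity -/

theorem F_int {Λ : ℝ} {F q Q : ℂ → ℂ} (B : Bs Λ F q Q) (n : ℤ) (z : ℂ) :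
    F (z + n) = F z + 2 * Real.pi * n ∧ q (z + n) = q z ∧ deriv F (z + n) = deriv F z ∧
      deriv q (z + n) = deriv q z := by
  have h1 : Function.Periodic (fun z => F z - 2 * Real.pi * z) 1 := by
    intro z
    simp only [B.Fp z]
    ring
  have h2 : Function.Periodic q 1 := B.qp
  have e1 : ∀ z, F (z + n) = F z + 2 * Real.pi * n := by
    intro z
    have := h1.int_mul n z
    simp only [mul_one] at this
    linear_combination this
  have e2 : ∀ z, q (z + n) = q z := by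
    intro z
    have := h2.int_mul n z
    simpa using this
  refine ⟨e1 z, e2 z, ?_, ?_⟩
  · have h3 : (fun s => F (s + n)) = fun s => F s + 2 * Real.pi * n := funext e1
    have h4 : deriv (fun s => F (s + n)) z = deriv F (z + n) := deriv_comp_add_const F (n : ℂ) z
    rw [← h4, h3]
    exact deriv_add_const _
  · have h3 : (fun s => q (s + n)) = fun s => q s := funext e2
    have h4 : deriv (fun s => q (s + n)) z = deriv q (z + n) := deriv_comp_add_const q (n : ℂ) z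
    rw [← h4, h3]

theorem Inc_int {Λ : ℝ} {F q Q : ℂ → ℂ} (B : Bs Λ F q Q) (n : ℤ) (x a b : ℂ) :
    Inc F q (x - n, a, b) = Inc F q (x, a, b) := by
  obtain ⟨h1, h2, h3, h4⟩ := F_int B n (x - n)
  rw [sub_add_cancel] at h1 h2 h3 h4
  have h5 : a - F x = a - F (x - n) - n * (2 * Real.pi) := by rw [h1]; ring
  simp only [Inc, ← h2, ← h3, ← h4]
  rw [h5, Complex.cos_sub_int_mul_two_pi, Complex.sin_sub_int_mul_two_pi]

/-! ### the theorem -/

/-- **Row P, second part**: a holomorphic position function on the tube which satisfies the first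
law near the origin has all the properties `Po` -/
theorem po_of {κ Λ : ℝ} {H Φ : ℂ → ℂ} {r e : ℝ} {α p : ℂ → ℂ → ℂ} {J F q Q : ℂ → ℂ}
    (E : En κ Λ H Φ r e α p J F q) (B : Bs Λ F q Q) {y ρ : ℝ} {A P θ : ℂ × ℂ → ℂ}
    (T : Tu α p y ρ A P) (hρ : ρ ≤ e) (hy : 2 * ρ < y)
    (an : AnalyticOnNhd ℂ θ (Tb (y - ρ) ρ)) (h0 : θ (0, 0) = 0)
    (hA : ∀ᶠ u in 𝓝 ((0 : ℂ), (0 : ℂ)),
      A (u.1 + u.2 / 2, u.2) + A (u.1 - u.2 / 2, u.2) = 2 * F (θ u)) : Po F q y ρ A P θ := by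
  obtain ⟨⟨⟨h, ρ', L', HH, lam, l, φ, D⟩, L⟩, na, dF, dq, re⟩ := E
  have hr := L.hr
  have he := L.he
  have hρ0 := T.ρ0
  have hy1 : 0 < y - ρ := by linarith
  have z0 : ((0 : ℂ), (0 : ℂ)) ∈ Tb (y - ρ) ρ := by simpa using zero_mem_Tb hy1 hρ0 0
  have gne : ∀ x : ℝ, deriv F x ≠ 0 := fun x hx => by
    have := B.gpos x
    rw [hx] at this
    simp at this
  have half : ∀ u : ℂ × ℂ, (u.1 + u.2 / 2, u.2) = (u.1 + (1 / 2 : ℂ) * u.2, u.2) := fun u => by
    rw [div_eq_inv_mul, one_div]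
  have half' : ∀ u : ℂ × ℂ, (u.1 - u.2 / 2, u.2) = (u.1 + (-1 / 2 : ℂ) * u.2, u.2) := fun u => by
    refine Prod.ext ?_ rfl
    simp only
    ring
  have n1 : ‖(1 / 2 : ℂ)‖ ≤ 1 := by norm_num
  have n2 : ‖(-1 / 2 : ℂ)‖ ≤ 1 := by norm_num
  -- analytic shifts
  have aAp : AnalyticOnNhd ℂ (fun u : ℂ × ℂ => A (u.1 + u.2 / 2, u.2)) (Tb (y - ρ) ρ) := by
    simp only [half]
    exact an_comp_sh' T.aA n1
  have aAm : AnalyticOnNhd ℂ (fun u : ℂ × ℂ => A (u.1 - u.2 / 2, u.2)) (Tb (y - ρ) ρ) := by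
    simp only [half']
    exact an_comp_sh' T.aA n2
  have aPp : AnalyticOnNhd ℂ (fun u : ℂ × ℂ => P (u.1 + u.2 / 2, u.2)) (Tb (y - ρ) ρ) := by
    simp only [half]
    exact an_comp_sh' T.aP n1
  have aPm : AnalyticOnNhd ℂ (fun u : ℂ × ℂ => P (u.1 - u.2 / 2, u.2)) (Tb (y - ρ) ρ) := by
    simp only [half']
    exact an_comp_sh' T.aP n2
  have aFθ : AnalyticOnNhd ℂ (fun u => F (θ u)) (Tb (y - ρ) ρ) := fun u hu =>
    (B.dF.analyticAt _).comp (an u hu)
  have aqθ : AnalyticOnNhd ℂ (fun u => q (θ u)) (Tb (y - ρ) ρ) := fun u hu =>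
    (B.dq.analyticAt _).comp (an u hu)
  have agθ : AnalyticOnNhd ℂ (fun u => deriv F (θ u)) (Tb (y - ρ) ρ) := fun u hu =>
    (B.dF.analyticAt _).deriv.comp (an u hu)
  have aq'θ : AnalyticOnNhd ℂ (fun u => deriv q (θ u)) (Tb (y - ρ) ρ) := fun u hu =>
    (B.dq.analyticAt _).deriv.comp (an u hu)
  -- the first law everywhere
  have sA : ∀ u ∈ Tb (y - ρ) ρ,
      A (u.1 + u.2 / 2, u.2) + A (u.1 - u.2 / 2, u.2) = 2 * F (θ u) := fun u hu =>
    (aAp.add aAm).eqOn_of_preconnected_of_eventuallyEq (analyticOnNhd_const.mul aFθ)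
      (pre_Tb _ _) z0 hA hu
  -- near the origin: `F = Φ`, `q = H ∘ F`
  have hΦ0 : AnalyticAt ℂ Φ ((0 : ℝ) : ℂ) := by
    have oS : IsOpen (Str ρ') := isOpen_Str ρ'
    have : DifferentiableOn ℂ Φ (Str ρ') := fun z hz =>
      (D.dΦ z hz).differentiableAt.differentiableWithinAt
    refine this.analyticAt (oS.mem_nhds ?_)
    simp [Str, D.ρ0]
  have FΦ : F =ᶠ[𝓝 (0 : ℂ)] Φ := by
    have := real_id (s := 0) (B.dF.analyticAt _) hΦ0 (fun x => (re x).1)
    simpa using this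
  have F0 : F 0 = (φ 0 : ℂ) := by
    have h1 := (re 0).1
    have h2 := D.Φr 0
    rw [Complex.ofReal_zero] at h1 h2
    rw [h1, h2]
  have F0m : F 0 ∈ Str κ := by
    rw [F0]
    simp [Str, D.κ0]
  have oκ : IsOpen (Str κ) := isOpen_Str κ
  have hHF : AnalyticAt ℂ (fun z => H (F z)) ((0 : ℝ) : ℂ) := by
    rw [Complex.ofReal_zero]
    exact (D.dH.analyticAt (oκ.mem_nhds F0m)).comp (B.dF.analyticAt 0)
  have qH : q =ᶠ[𝓝 (0 : ℂ)] fun z => H (F z) := by
    have := real_id (s := 0) (B.dq.analyticAt _) hHF (fun x => by rw [(re x).2, (re x).1])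
    simpa using this
  have FStr : ∀ᶠ z in 𝓝 (0 : ℂ), F z ∈ Str κ :=
    B.dF.continuous.continuousAt.eventually (oκ.mem_nhds F0m)
  have qH' : ∀ᶠ z in 𝓝 (0 : ℂ), deriv q z = deriv H (F z) * deriv F z := by
    filter_upwards [qH.eventuallyEq_nhds, FStr] with z h1 h2
    rw [h1.deriv_eq]
    exact ((D.dH.differentiableAt (oκ.mem_nhds h2)).hasDerivAt.comp z
      (B.dF z).hasDerivAt).deriv
  -- points near the origin
  have cθ : Tendsto θ (𝓝 ((0 : ℂ), (0 : ℂ))) (𝓝 0) := by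
    have := (an _ z0).continuousAt.tendsto
    rwa [h0] at this
  have cp : Tendsto (fun u : ℂ × ℂ => (u.1 + u.2 / 2, u.2)) (𝓝 ((0 : ℂ), (0 : ℂ)))
      (𝓝 ((0 : ℂ), (0 : ℂ))) := by
    have : Continuous fun u : ℂ × ℂ => (u.1 + u.2 / 2, u.2) := by fun_prop
    have h1 := this.tendsto ((0 : ℂ), (0 : ℂ))
    simpa using h1
  have cm : Tendsto (fun u : ℂ × ℂ => (u.1 - u.2 / 2, u.2)) (𝓝 ((0 : ℂ), (0 : ℂ)))
      (𝓝 ((0 : ℂ), (0 : ℂ))) := by
    have : Continuous fun u : ℂ × ℂ => (u.1 - u.2 / 2, u.2) := by fun_prop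
    have h1 := this.tendsto ((0 : ℂ), (0 : ℂ))
    simpa using h1
  have T0 := T.eq 0
  rw [Complex.ofReal_zero] at T0
  have nWW : ∀ᶠ u : ℂ × ℂ in 𝓝 ((0 : ℂ), (0 : ℂ)), u ∈ WW (1 / 2) r e := by
    have c1 : Continuous fun p : ℂ × ℂ => ‖p.2‖ := by fun_prop
    have c2 : Continuous fun p : ℂ × ℂ => |p.1.im| + 1 / 2 * |p.2.im| :=
      (Complex.continuous_im.comp continuous_fst).abs.add
        (continuous_const.mul (Complex.continuous_im.comp continuous_snd).abs)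
    have o1 : IsOpen {p : ℂ × ℂ | ‖p.2‖ < e} := isOpen_lt c1 continuous_const
    have o2 : IsOpen {p : ℂ × ℂ | |p.1.im| + 1 / 2 * |p.2.im| < r} := isOpen_lt c2 continuous_const
    have m1 : ((0 : ℂ), (0 : ℂ)) ∈ {p : ℂ × ℂ | ‖p.2‖ < e} := by simp [he]
    have m2 : ((0 : ℂ), (0 : ℂ)) ∈ {p : ℂ × ℂ | |p.1.im| + 1 / 2 * |p.2.im| < r} := by simp [hr]
    filter_upwards [o1.mem_nhds m1, o2.mem_nhds m2] with u h1 h2 using ⟨h1, h2⟩
  -- second and third law
  have key : ∀ᶠ u in 𝓝 ((0 : ℂ), (0 : ℂ)),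
      (P (u.1 + u.2 / 2, u.2) + P (u.1 - u.2 / 2, u.2) = 2 * q (θ u) *
        cos ((A (u.1 + u.2 / 2, u.2) - A (u.1 - u.2 / 2, u.2)) / 2)) ∧
      (deriv F (θ u) * (P (u.1 + u.2 / 2, u.2) - P (u.1 - u.2 / 2, u.2)) =
        2 * deriv q (θ u) * sin ((A (u.1 + u.2 / 2, u.2) - A (u.1 - u.2 / 2, u.2)) / 2)) := by
    filter_upwards [hA, cp.eventually T0, cm.eventually T0, nWW, cθ.eventually qH,
      cθ.eventually qH'] with u e1 e2 e3 e4 e5 e6
    obtain ⟨e2a, e2p⟩ := e2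
    obtain ⟨e3a, e3p⟩ := e3
    have s1 := L.sum u.1 u.2 e4
    have s2 := L.diff u.1 u.2 e4
    rw [← e2a, ← e3a, ← e2p, ← e3p] at s1 s2
    have e7 : (A (u.1 + u.2 / 2, u.2) + A (u.1 - u.2 / 2, u.2)) / 2 = F (θ u) := by
      rw [e1]
      ring
    rw [e7] at s1 s2
    refine ⟨?_, ?_⟩
    · rw [s1, e5]
    · rw [s2, e6]
      ring
  have acos : AnalyticOnNhd ℂ (fun u : ℂ × ℂ =>
      cos ((A (u.1 + u.2 / 2, u.2) - A (u.1 - u.2 / 2, u.2)) / 2)) (Tb (y - ρ) ρ) := by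
    intro u hu
    exact (Complex.differentiable_cos.analyticAt _).comp
      (((aAp u hu).sub (aAm u hu)).div analyticAt_const (by norm_num))
  have asin : AnalyticOnNhd ℂ (fun u : ℂ × ℂ =>
      sin ((A (u.1 + u.2 / 2, u.2) - A (u.1 - u.2 / 2, u.2)) / 2)) (Tb (y - ρ) ρ) := by
    intro u hu
    exact (Complex.differentiable_sin.analyticAt _).comp
      (((aAp u hu).sub (aAm u hu)).div analyticAt_const (by norm_num))
  have sP : ∀ u ∈ Tb (y - ρ) ρ,
      P (u.1 + u.2 / 2, u.2) + P (u.1 - u.2 / 2, u.2) = 2 * q (θ u) *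
        cos ((A (u.1 + u.2 / 2, u.2) - A (u.1 - u.2 / 2, u.2)) / 2) := fun u hu =>
    (aPp.add aPm).eqOn_of_preconnected_of_eventuallyEq
      ((analyticOnNhd_const.mul aqθ).mul acos) (pre_Tb _ _) z0
      (key.mono fun u hu => hu.1) hu
  have dP : ∀ u ∈ Tb (y - ρ) ρ,
      deriv F (θ u) * (P (u.1 + u.2 / 2, u.2) - P (u.1 - u.2 / 2, u.2)) =
        2 * deriv q (θ u) * sin ((A (u.1 + u.2 / 2, u.2) - A (u.1 - u.2 / 2, u.2)) / 2) :=
    fun u hu => (agθ.mul (aPp.sub aPm)).eqOn_of_preconnected_of_eventuallyEq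
      ((analyticOnNhd_const.mul aq'θ).mul asin) (pre_Tb _ _) z0
      (key.mono fun u hu => hu.2) hu
  -- the axis
  have g0 : deriv F 0 ≠ 0 := by simpa using gne 0
  have c0 : Tendsto (fun t : ℂ => ((t, 0) : ℂ × ℂ)) (𝓝 0) (𝓝 ((0 : ℂ), (0 : ℂ))) := by
    have : Continuous fun t : ℂ => ((t, 0) : ℂ × ℂ) := by fun_prop
    exact this.tendsto 0
  have zn : ∀ᶠ t in 𝓝 (0 : ℂ), θ (t, 0) = t := by
    have c1 : Tendsto (fun t : ℂ => (θ (t, 0), t)) (𝓝 0) (𝓝 ((0 : ℂ), (0 : ℂ))) :=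
      (cθ.comp c0).prodMk_nhds tendsto_id
    have c2 : ∀ᶠ t : ℂ in 𝓝 0, |t.im| < r := by
      have o2 : IsOpen {t : ℂ | |t.im| < r} := isOpen_lt Complex.continuous_im.abs continuous_const
      exact o2.mem_nhds (by simp [hr])
    filter_upwards [c1.eventually (loc_inj (B.dF.analyticAt 0) g0), c0.eventually hA,
      c0.eventually T0, FΦ, c2] with t h1 h2 h3 h4 h5
    refine h1 ?_
    have e1 : A (t, 0) = α t 0 := h3.1
    have e2 : α t 0 = Φ t := L.αzero t h5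
    simp only [zero_div, add_zero, sub_zero] at h2
    show F (θ (t, 0)) = F t
    rw [h4, ← e2, ← e1]
    linear_combination -(1 / 2 : ℂ) * h2
  have zz : ∀ t : ℂ, |t.im| < y - ρ → θ (t, 0) = t := by
    have a1 : AnalyticOnNhd ℂ (fun t : ℂ => θ (t, 0)) (Str (y - ρ)) := by
      intro t ht
      have hm : ((t, 0) : ℂ × ℂ) ∈ Tb (y - ρ) ρ := ⟨ht, by simpa using hρ0⟩
      exact AnalyticAt.comp (g := θ) (f := fun t : ℂ => ((t, 0) : ℂ × ℂ)) (an _ hm)
        (analyticAt_id.prod analyticAt_const)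
    have hpre : IsPreconnected (Str (y - ρ)) := (convex_Str (y - ρ)).isPreconnected
    have hz : (0 : ℂ) ∈ Str (y - ρ) := by simp [Str, hy1]
    intro t ht
    exact a1.eqOn_of_preconnected_of_eventuallyEq analyticOnNhd_id hpre hz zn ht
  -- periodicity and evenness of `A`
  have zT : ((0 : ℂ), (0 : ℂ)) ∈ Tb y ρ := by simpa using zero_mem_Tb T.y0 hρ0 0
  have nWW0 : ∀ᶠ u : ℂ × ℂ in 𝓝 ((0 : ℂ), (0 : ℂ)), u ∈ WW 0 r e := by
    filter_upwards [nWW] with u hu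
    refine ⟨hu.1, ?_⟩
    have h1 := hu.2
    have h2 := abs_nonneg u.2.im
    nlinarith
  have T1 := T.eq 1
  have c3 : Tendsto (fun u : ℂ × ℂ => (u.1 + 1, u.2)) (𝓝 ((0 : ℂ), (0 : ℂ)))
      (𝓝 (((1 : ℝ) : ℂ), (0 : ℂ))) := by
    have : Continuous fun u : ℂ × ℂ => (u.1 + 1, u.2) := by fun_prop
    have h1 := this.tendsto ((0 : ℂ), (0 : ℂ))
    simpa using h1
  have c4 : Tendsto (fun u : ℂ × ℂ => (u.1, -u.2)) (𝓝 ((0 : ℂ), (0 : ℂ)))
      (𝓝 ((0 : ℂ), (0 : ℂ))) := by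
    have : Continuous fun u : ℂ × ℂ => (u.1, -u.2) := by fun_prop
    have h1 := this.tendsto ((0 : ℂ), (0 : ℂ))
    simpa using h1
  have an1 : ∀ {f : ℂ × ℂ → ℂ} {y' : ℝ}, AnalyticOnNhd ℂ f (Tb y' ρ) →
      AnalyticOnNhd ℂ (fun u : ℂ × ℂ => f (u.1 + 1, u.2)) (Tb y' ρ) := by
    intro f y' hf u hu
    have hm : ((u.1 + 1, u.2) : ℂ × ℂ) ∈ Tb y' ρ := by
      refine ⟨?_, hu.2⟩
      simpa using hu.1
    exact AnalyticAt.comp (g := f) (f := fun u : ℂ × ℂ => (u.1 + 1, u.2)) (hf _ hm)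
      ((analyticAt_fst.add analyticAt_const).prod analyticAt_snd)
  have an2 : ∀ {f : ℂ × ℂ → ℂ} {y' : ℝ}, AnalyticOnNhd ℂ f (Tb y' ρ) →
      AnalyticOnNhd ℂ (fun u : ℂ × ℂ => f (u.1, -u.2)) (Tb y' ρ) := by
    intro f y' hf u hu
    have hm : ((u.1, -u.2) : ℂ × ℂ) ∈ Tb y' ρ := by
      refine ⟨hu.1, ?_⟩
      simpa using hu.2
    exact AnalyticAt.comp (g := f) (f := fun u : ℂ × ℂ => (u.1, -u.2)) (hf _ hm)
      (analyticAt_fst.prod analyticAt_snd.neg)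
  have Aper : ∀ u ∈ Tb y ρ, A (u.1 + 1, u.2) = A u + 2 * Real.pi := fun u hu =>
    (an1 T.aA).eqOn_of_preconnected_of_eventuallyEq (T.aA.add analyticOnNhd_const) (pre_Tb _ _) zT
      (by
        filter_upwards [c3.eventually T1, T0, nWW0] with u h1 h2 h3
        have e1 : A (u.1 + 1, u.2) = α (u.1 + 1) u.2 := h1.1
        have e2 : A u = α u.1 u.2 := h2.1
        show A (u.1 + 1, u.2) = A u + 2 * Real.pi
        rw [e1, e2]
        exact L.αper u.1 u.2 h3) hu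
  have Aev : ∀ u ∈ Tb y ρ, A (u.1, -u.2) = A u := fun u hu =>
    (an2 T.aA).eqOn_of_preconnected_of_eventuallyEq T.aA (pre_Tb _ _) zT
      (by
        filter_upwards [c4.eventually T0, T0, nWW0] with u h1 h2 h3
        have e1 : A (u.1, -u.2) = α u.1 (-u.2) := h1.1
        have e2 : A u = α u.1 u.2 := h2.1
        show A (u.1, -u.2) = A u
        rw [e1, e2]
        exact L.αev u.1 u.2 h3) hu
  have mp : ∀ u ∈ Tb (y - ρ) ρ, (u.1 + u.2 / 2, u.2) ∈ Tb y ρ := fun u hu => by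
    rw [half]
    exact sh_mem n1 hu
  have mm : ∀ u ∈ Tb (y - ρ) ρ, (u.1 - u.2 / 2, u.2) ∈ Tb y ρ := fun u hu => by
    rw [half']
    exact sh_mem n2 hu
  have per : ∀ u ∈ Tb (y - ρ) ρ, θ (u.1 + 1, u.2) = θ u + 1 := fun u hu =>
    (an1 an).eqOn_of_preconnected_of_eventuallyEq (an.add analyticOnNhd_const) (pre_Tb _ _) z0
      (by
        have l1 : θ ((1 : ℝ), 0) = 1 := by
          have := zz ((1 : ℝ) : ℂ) (by simpa using hy1)
          simpa using this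
        have m1 : (((1 : ℝ) : ℂ), (0 : ℂ)) ∈ Tb (y - ρ) ρ := zero_mem_Tb hy1 hρ0 1
        have c5 : Tendsto (fun u : ℂ × ℂ => θ (u.1 + 1, u.2)) (𝓝 ((0 : ℂ), (0 : ℂ)))
            (𝓝 ((1 : ℝ) : ℂ)) := by
          have h1 := (an _ m1).continuousAt.tendsto
          rw [l1] at h1
          have h2 := h1.comp c3
          simpa [Function.comp_def] using h2
        have c6 : Tendsto (fun u : ℂ × ℂ => θ u + 1) (𝓝 ((0 : ℂ), (0 : ℂ))) (𝓝 ((1 : ℝ) : ℂ)) := by
          have := cθ.add_const (1 : ℂ)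
          simpa using this
        have c7 := c5.prodMk_nhds c6
        filter_upwards [c7.eventually (loc_inj (B.dF.analyticAt _) (gne 1)),
          (isOpen_Tb (y - ρ) ρ).mem_nhds z0] with u h1 h2
        refine h1 ?_
        show F (θ (u.1 + 1, u.2)) = F (θ u + 1)
        have hm : ((u.1 + 1, u.2) : ℂ × ℂ) ∈ Tb (y - ρ) ρ := by
          refine ⟨?_, h2.2⟩
          simpa using h2.1
        have e1 := sA _ hm
        have e2 := sA u h2
        have e3 := Aper _ (mp u h2)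
        have e4 := Aper _ (mm u h2)
        simp only at e1 e3 e4
        have e5 : u.1 + 1 + u.2 / 2 = u.1 + u.2 / 2 + 1 := by ring
        have e6 : u.1 + 1 - u.2 / 2 = u.1 - u.2 / 2 + 1 := by ring
        rw [e5, e6, e3, e4] at e1
        rw [B.Fp]
        linear_combination (-1 / 2 : ℂ) * e1 + (1 / 2 : ℂ) * e2) hu
  have ev : ∀ u ∈ Tb (y - ρ) ρ, θ (u.1, -u.2) = θ u := fun u hu =>
    (an2 an).eqOn_of_preconnected_of_eventuallyEq an (pre_Tb _ _) z0
      (by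
        have c7 := (cθ.comp c4).prodMk_nhds cθ
        filter_upwards [c7.eventually (loc_inj (B.dF.analyticAt _) g0),
          (isOpen_Tb (y - ρ) ρ).mem_nhds z0] with u h1 h2
        refine h1 ?_
        show F (θ (u.1, -u.2)) = F (θ u)
        have hm : ((u.1, -u.2) : ℂ × ℂ) ∈ Tb (y - ρ) ρ := by
          refine ⟨h2.1, ?_⟩
          simpa using h2.2
        have e1 := sA _ hm
        have e2 := sA u h2
        have e3 := Aev _ (mp u h2)
        have e4 := Aev _ (mm u h2)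
        simp only at e1 e3 e4
        have e5 : u.1 + -u.2 / 2 = u.1 - u.2 / 2 := by ring
        have e6 : u.1 - -u.2 / 2 = u.1 + u.2 / 2 := by ring
        rw [e5, e6, e3, e4] at e1
        linear_combination (-1 / 2 : ℂ) * e1 + (1 / 2 : ℂ) * e2) hu
  -- incidence
  have incp : ∀ u ∈ Tb (y - ρ) ρ,
      Inc F q (θ u, A (u.1 + u.2 / 2, u.2), P (u.1 + u.2 / 2, u.2)) = 0 := by
    intro u hu
    have e1 := sA u hu
    have e2 := sP u hu
    have e3 := dP u hu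
    have e4 : A (u.1 + u.2 / 2, u.2) - F (θ u) =
        (A (u.1 + u.2 / 2, u.2) - A (u.1 - u.2 / 2, u.2)) / 2 := by
      linear_combination (1 / 2 : ℂ) * e1
    simp only [Inc]
    rw [e4]
    linear_combination (-1 / 2 : ℂ) * deriv F (θ u) * e2 - (1 / 2 : ℂ) * e3
  have incm : ∀ u ∈ Tb (y - ρ) ρ,
      Inc F q (θ u, A (u.1 - u.2 / 2, u.2), P (u.1 - u.2 / 2, u.2)) = 0 := by
    intro u hu
    have e1 := sA u hu
    have e2 := sP u hu
    have e3 := dP u hu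
    have e4 : A (u.1 - u.2 / 2, u.2) - F (θ u) =
        -((A (u.1 + u.2 / 2, u.2) - A (u.1 - u.2 / 2, u.2)) / 2) := by
      linear_combination (1 / 2 : ℂ) * e1
    simp only [Inc]
    rw [e4, Complex.cos_neg, Complex.sin_neg]
    linear_combination (-1 / 2 : ℂ) * deriv F (θ u) * e2 + (1 / 2 : ℂ) * e3
  -- transversality
  have hW : ∀ x, Wr F q x ≠ 0 := fun x => by
    rw [B.wr x]
    have : (Λ : ℂ) ≠ 0 := by exact_mod_cast B.Λ0.ne'
    exact pow_ne_zero 3 this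
  have cvm : Continuous fun u : ℂ × ℂ => (u.1 - u.2 / 2, u.2) := by fun_prop
  have cvp : Continuous fun u : ℂ × ℂ => (u.1 + u.2 / 2, u.2) := by fun_prop
  have trans : ∀ v : ℂ × ℂ, (v.1 - v.2 / 2, v.2) ∈ Tb (y - ρ) ρ → v.2 ≠ 0 →
      Incx F q (θ (v.1 - v.2 / 2, v.2), A v, P v) ≠ 0 := by
    intro v hv hne
    have hvT : v ∈ Tb y ρ := by
      have := mp _ hv
      simpa using this
    have aΘ : AnalyticAt ℂ (fun v : ℂ × ℂ => θ (v.1 - v.2 / 2, v.2)) v := by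
      simp only [half'] at hv ⊢
      exact an_comp_sh (an _ hv)
    refine Incx_ne B.dF B.dq (Θ := fun v : ℂ × ℂ => θ (v.1 - v.2 / 2, v.2)) (T.aA v hvT)
      (T.aP v hvT) aΘ ?_ (hW _) ?_
    · filter_upwards [cvm.continuousAt.eventually ((isOpen_Tb (y - ρ) ρ).mem_nhds hv)] with v' hv'
      have := incp (v'.1 - v'.2 / 2, v'.2) hv'
      simpa using this
    · rw [bracket L T hρ hvT]
      exact L.Jne v.2 (lt_of_lt_of_le hvT.2 hρ) hne
  refine ⟨an, zz, fun t w h => per (t, w) h, fun t w h => ev (t, w) h, fun t w h => sA (t, w) h,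
    fun t w h => sP (t, w) h, fun t w h => dP (t, w) h, ?_, ?_⟩
  · -- consecutive vertices
    intro t w ht hw hne n hn
    have hu : ((t, w) : ℂ × ℂ) ∈ Tb (y - ρ - ρ) ρ := ⟨by simpa [two_mul, sub_sub] using ht, hw⟩
    have sp : ∀ u ∈ Tb (y - ρ - ρ) ρ, (u.1 + u.2 / 2, u.2) ∈ Tb (y - ρ) ρ := fun u hu => by
      rw [half]
      exact sh_mem n1 hu
    have sm : ∀ u ∈ Tb (y - ρ - ρ) ρ, (u.1 - u.2 / 2, u.2) ∈ Tb (y - ρ) ρ := fun u hu => by
      rw [half']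
      exact sh_mem n2 hu
    have aθp : AnalyticOnNhd ℂ (fun u : ℂ × ℂ => θ (u.1 + u.2 / 2, u.2)) (Tb (y - ρ - ρ) ρ) := by
      simp only [half]
      exact an_comp_sh' an n1
    have aθm : AnalyticOnNhd ℂ (fun u : ℂ × ℂ => θ (u.1 - u.2 / 2, u.2)) (Tb (y - ρ - ρ) ρ) := by
      simp only [half']
      exact an_comp_sh' an n2
    have huT : ((t, w) : ℂ × ℂ) ∈ Tb y ρ := by
      refine ⟨lt_of_lt_of_le hu.1 ?_, hw⟩
      linarith
    have tr := trans (t, w) (sm _ hu) hne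
    have un := Inc_unique B.dF B.dq tr
    have k1 : ContinuousAt (fun u : ℂ × ℂ => (θ (u.1 - u.2 / 2, u.2), A u, P u)) (t, w) :=
      (aθm _ hu).continuousAt.prodMk ((T.aA _ huT).continuousAt.prodMk (T.aP _ huT).continuousAt)
    have k2 : ContinuousAt (fun u : ℂ × ℂ => (θ (u.1 + u.2 / 2, u.2) - n, A u, P u)) (t, w) :=
      ((aθp _ hu).continuousAt.sub continuousAt_const).prodMk
        ((T.aA _ huT).continuousAt.prodMk (T.aP _ huT).continuousAt)
    have hn' : θ (t + w / 2, w) - n = θ (t - w / 2, w) := by linear_combination hn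
    have k3 : Tendsto (fun u : ℂ × ℂ => ((θ (u.1 + u.2 / 2, u.2) - n, A u, P u),
        (θ (u.1 - u.2 / 2, u.2), A u, P u))) (𝓝 (t, w))
        (𝓝 ((θ (t - w / 2, w), A (t, w), P (t, w)), (θ (t - w / 2, w), A (t, w), P (t, w)))) := by
      have h1 := k2.tendsto
      simp only [hn'] at h1
      exact h1.prodMk_nhds k1.tendsto
    have near : (fun u : ℂ × ℂ => θ (u.1 + u.2 / 2, u.2) - n) =ᶠ[𝓝 ((t, w) : ℂ × ℂ)]
        fun u => θ (u.1 - u.2 / 2, u.2) := by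
      filter_upwards [k3.eventually un, (isOpen_Tb _ _).mem_nhds hu] with u h1 h2
      refine h1 ?_ ?_ rfl
      · show Inc F q (θ (u.1 + u.2 / 2, u.2) - n, A u, P u) = 0
        rw [Inc_int B]
        have := incm _ (sp u h2)
        simpa using this
      · show Inc F q (θ (u.1 - u.2 / 2, u.2), A u, P u) = 0
        have := incp _ (sm u h2)
        simpa using this
    have glob := (aθp.sub analyticOnNhd_const).eqOn_of_preconnected_of_eventuallyEq aθm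
      (pre_Tb _ _) hu near
    have hy2 : 0 < y - ρ - ρ := by linarith
    have z1 : ((0 : ℂ), (0 : ℂ)) ∈ Tb (y - ρ - ρ) ρ := by simpa using zero_mem_Tb hy2 hρ0 0
    have n0 : (n : ℂ) = 0 := by
      have h1 := glob z1
      simp [h0] at h1
      simpa using h1
    -- the derivative in `w`
    have nr : ∀ᶠ s : ℂ in 𝓝 0, θ (s / 2, s) = θ (-(s / 2), s) := by
      have cc : Tendsto (fun s : ℂ => ((0, s) : ℂ × ℂ)) (𝓝 0) (𝓝 ((0 : ℂ), (0 : ℂ))) := by
        have : Continuous fun s : ℂ => ((0, s) : ℂ × ℂ) := by fun_prop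
        exact this.tendsto 0
      filter_upwards [cc.eventually ((isOpen_Tb _ _).mem_nhds z1)] with s hs
      have hs' : ((0, s) : ℂ × ℂ) ∈ Tb (y - ρ - ρ) ρ := hs
      have h1 := glob hs'
      simp only [n0, Pi.sub_apply] at h1
      simpa using h1
    have dθ := (an _ z0).differentiableAt.hasFDerivAt
    set Dθ := fderiv ℂ θ ((0 : ℂ), (0 : ℂ)) with hDθ
    have p1 : HasDerivAt (fun s : ℂ => ((s / 2, s) : ℂ × ℂ)) (1 / 2, 1) 0 :=
      ((hasDerivAt_id (0 : ℂ)).div_const 2).prodMk (hasDerivAt_id 0)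
    have p2 : HasDerivAt (fun s : ℂ => ((-(s / 2), s) : ℂ × ℂ)) (-(1 / 2), 1) 0 :=
      ((hasDerivAt_id (0 : ℂ)).div_const 2).neg.prodMk (hasDerivAt_id 0)
    have p3 : HasDerivAt (fun s : ℂ => ((s, 0) : ℂ × ℂ)) (1, 0) 0 :=
      (hasDerivAt_id (0 : ℂ)).prodMk (hasDerivAt_const 0 0)
    have q1 : HasDerivAt (fun s : ℂ => θ (s / 2, s)) (Dθ (1 / 2, 1)) 0 :=
      HasFDerivAt.comp_hasDerivAt_of_eq (f := fun s : ℂ => ((s / 2, s) : ℂ × ℂ)) (0 : ℂ) dθ p1
        (by simp)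
    have q2 : HasDerivAt (fun s : ℂ => θ (-(s / 2), s)) (Dθ (-(1 / 2), 1)) 0 :=
      HasFDerivAt.comp_hasDerivAt_of_eq (f := fun s : ℂ => ((-(s / 2), s) : ℂ × ℂ)) (0 : ℂ) dθ p2
        (by simp)
    have q3 : HasDerivAt (fun s : ℂ => θ (s, 0)) (Dθ (1, 0)) 0 :=
      HasFDerivAt.comp_hasDerivAt_of_eq (f := fun s : ℂ => ((s, 0) : ℂ × ℂ)) (0 : ℂ) dθ p3
        (by simp)
    have e1 : Dθ (1 / 2, 1) = Dθ (-(1 / 2), 1) := by
      have h1 : (fun s : ℂ => θ (s / 2, s)) =ᶠ[𝓝 0] fun s => θ (-(s / 2), s) := nr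
      exact (q1.congr_of_eventuallyEq h1.symm).unique q2
    have e2 : Dθ (1, 0) = 1 := by
      have h1 : (fun s : ℂ => θ (s, 0)) =ᶠ[𝓝 0] fun s => s := zn
      exact (q3.congr_of_eventuallyEq h1.symm).unique (hasDerivAt_id 0)
    have e3 : ((1, 0) : ℂ × ℂ) = (1 / 2, 1) - (-(1 / 2), 1) := by
      refine Prod.ext ?_ ?_
      · show (1 : ℂ) = 1 / 2 - -(1 / 2)
        norm_num
      · show (0 : ℂ) = 1 - 1
        norm_num
    rw [e3, map_sub, e1, sub_self] at e2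
    exact zero_ne_one e2
  · -- no tangency
    intro t w h hne hg hs
    have hv : (((t + w / 2, w) : ℂ × ℂ).1 - ((t + w / 2, w) : ℂ × ℂ).2 / 2,
        ((t + w / 2, w) : ℂ × ℂ).2) ∈ Tb (y - ρ) ρ := by simpa using h
    have tr := trans (t + w / 2, w) hv hne
    apply tr
    have e1 := sA _ h
    have e5 := incp _ h
    simp only [add_sub_cancel_right] at e1 e5 ⊢
    have e4 : A (t + w / 2, w) - F (θ (t, w)) = (A (t + w / 2, w) - A (t - w / 2, w)) / 2 := by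
      linear_combination (1 / 2 : ℂ) * e1
    simp only [Inc] at e5
    rw [e4, hs, mul_zero, add_zero] at e5
    have e6 := (mul_eq_zero.1 e5).resolve_left hg
    simp only [Incx]
    rw [e4, hs, e6]
    ring

end Vale.Agent.P097.H830.CD
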